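import Mathlib

/-!
Finite loopless multigraphs, cuts, edge connectivity, spanning trees and thin trees
(definitions for problem P061, the strong thin tree conjecture).
-/

namespace Vale.Agent.H17.ThinTree

/-- A loopless multigraph with vertex type `V` and edge-copy type `E`: every edge copy `e`
has an unordered pair `ends e` of two distinct endpoints. Parallel edges are distinct
elements of `E` with the same `ends`. -/
structure MGraph (V E : Type) where
  ends : E → Sym2 V
  loopless : ∀ e, ¬ (ends e).IsDiag

variable {V E : Type}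

/-- The edge copy `e` crosses the vertex set `S`: it has an endpoint in `S` and an endpoint
outside `S`. -/
def MGraph.Crosses (G : MGraph V E) (S : Set V) (e : E) : Prop :=
  ∃ u ∈ G.ends e, ∃ v ∈ G.ends e, u ∈ S ∧ v ∉ S

/-- The number of edge copies of the edge set `T` crossing `S`, i.e. `|δ_T(S)|`
(with `T = Set.univ` this is `|δ_G(S)|`). -/
noncomputable def MGraph.cutCount (G : MGraph V E) (T : Set E) (S : Set V) : ℕ :=
  Set.ncard {e | e ∈ T ∧ G.Crosses S e}

/-- `G` is `k`-edge-connected: every nonempty proper vertex set is crossed by at least `k`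
edge copies. -/
def MGraph.EdgeConnected (G : MGraph V E) (k : ℕ) : Prop :=
  ∀ S : Set V, S.Nonempty → S ≠ Set.univ → k ≤ G.cutCount Set.univ S

/-- The simple graph on `V` formed by the edge copies in `T`. -/
def MGraph.toSimple (G : MGraph V E) (T : Set E) : SimpleGraph V where
  Adj u v := u ≠ v ∧ ∃ e ∈ T, G.ends e = s(u, v)
  symm := ⟨fun u v h => ⟨h.1.symm, by
    obtain ⟨e, he, hev⟩ := h.2
    exact ⟨e, he, by rw [hev, Sym2.eq_swap]⟩⟩⟩
  loopless := ⟨fun u h => h.1 rfl⟩

/-- `T` is a spanning tree of `G`: a set of `|V| - 1` edge copies forming a connected graph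
on all of `V` (hence a tree on `V`). -/
def MGraph.IsSpanningTree (G : MGraph V E) (T : Set E) : Prop :=
  T.ncard + 1 = Nat.card V ∧ (G.toSimple T).Connected

/-- The edge set `T` is `α`-thin in `G`: `|δ_T(S)| ≤ α |δ_G(S)|` for every nonempty proper
vertex set `S`. -/
def MGraph.IsThin (G : MGraph V E) (T : Set E) (α : ℝ) : Prop :=
  ∀ S : Set V, S.Nonempty → S ≠ Set.univ →
    (G.cutCount T S : ℝ) ≤ α * (G.cutCount Set.univ S : ℝ)

end Vale.Agent.H17.ThinTree
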