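import Mathlib

/-!
Maker-Breaker (weak achievement) games on an arbitrary board, and the pairing-strategy
criterion for Breaker.
-/

namespace Vale.Agent.H17.MakerBreaker

/-- The Maker-Breaker (weak achievement) game on the cell set `board` whose winning sets are the
sets `S` with `W S`.  `MakerWins board W M B` says: in the position where Maker owns the cells
`M`, Breaker owns the cells `B` and Maker is to move, Maker can force a win after finitely many
turns against every legal Breaker play.  Inductively: Maker claims an unclaimed board cell `c`
such that either `M ∪ {c}` contains a winning set (`now`), or Breaker has at least one legal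
reply and after every legal reply `d` (an unclaimed board cell) Maker can again force a win
from the position `(M ∪ {c}, B ∪ {d})` (`later`). -/
inductive MakerWins {α : Type} (board : Set α) (W : Set α → Prop) : Set α → Set α → Prop
  | now (M B : Set α) (c : α) (hc : c ∈ board) (hcM : c ∉ M) (hcB : c ∉ B)
      (S : Set α) (hW : W S) (hS : S ⊆ insert c M) : MakerWins board W M B
  | later (M B : Set α) (c : α) (hc : c ∈ board) (hcM : c ∉ M) (hcB : c ∉ B)
      (hex : ∃ d, d ∈ board ∧ d ∉ insert c M ∧ d ∉ B)
      (hall : ∀ d, d ∈ board → d ∉ insert c M → d ∉ B →
        MakerWins board W (insert c M) (insert d B)) : MakerWins board W M B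

/-- Invariant form of the pairing strategy. -/
theorem not_makerWins_of_pairing_aux {α : Type} (board : Set α) (W : Set α → Prop)
    (partner : α → α) (hinv : ∀ x, partner (partner x) = x)
    (hpair : ∀ S, W S → S ⊆ board → ∃ x ∈ S, partner x ≠ x ∧ partner x ∈ S)
    (M B : Set α) (h : MakerWins board W M B) :
    M ⊆ board → Disjoint M B →
      (∀ x ∈ M, partner x ≠ x → partner x ∈ board → partner x ∈ B) → False := by
  induction h with
  | now M B c hc hcM hcB S hW hS =>
    intro hMb hdisj hI
    have hSb : S ⊆ board := fun y hy => by
      rcases hS hy with rfl | hyM
      · exact hc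
      · exact hMb hyM
    obtain ⟨x, hxS, hne, hpS⟩ := hpair S hW hSb
    rcases hS hxS with hxc | hxM
    · rcases hS hpS with hpc | hpM
      · exact hne (hpc.trans hxc.symm)
      · have h1 := hI (partner x) hpM (by rw [hinv]; exact fun h => hne h.symm)
          (by rw [hinv, hxc]; exact hc)
        rw [hinv, hxc] at h1
        exact hcB h1
    · rcases hS hpS with hpc | hpM
      · have h1 := hI x hxM hne (by rw [hpc]; exact hc)
        rw [hpc] at h1
        exact hcB h1
      · have h1 := hI x hxM hne (hMb hpM)
        exact (Set.disjoint_left.1 hdisj hpM) h1
  | later M B c hc hcM hcB hex hall ih =>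
    intro hMb hdisj hI
    have hMb' : insert c M ⊆ board := fun y hy => by
      rcases hy with rfl | hyM
      · exact hc
      · exact hMb hyM
    by_cases hp : partner c ≠ c ∧ partner c ∈ board ∧ partner c ∉ B
    · obtain ⟨hne, hpb, hpB⟩ := hp
      have hpM : partner c ∉ M := fun hpM => by
        have h1 := hI (partner c) hpM (by rw [hinv]; exact fun h => hne h.symm)
          (by rw [hinv]; exact hc)
        rw [hinv] at h1
        exact hcB h1
      have hd : partner c ∉ insert c M := fun h => by
        rcases h with h | h
        · exact hne h
        · exact hpM h
      refine ih (partner c) hpb hd hpB hMb' ?_ ?_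
      · rw [Set.disjoint_left]
        intro y hy hyB
        rcases hy with rfl | hyM
        · rcases hyB with h | h
          · exact hne h.symm
          · exact hcB h
        · rcases hyB with h | h
          · exact hpM (h ▸ hyM)
          · exact (Set.disjoint_left.1 hdisj hyM) h
      · intro x hx hxne hxb
        rcases hx with rfl | hxM
        · exact Set.mem_insert _ _
        · exact Set.mem_insert_of_mem _ (hI x hxM hxne hxb)
    · obtain ⟨d, hdb, hdM, hdB⟩ := hex
      refine ih d hdb hdM hdB hMb' ?_ ?_
      · rw [Set.disjoint_left]
        intro y hy hyB
        rcases hy with rfl | hyM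
        · rcases hyB with h | h
          · exact hdM (h ▸ Set.mem_insert _ _)
          · exact hcB h
        · rcases hyB with h | h
          · exact hdM (h ▸ Set.mem_insert_of_mem _ hyM)
          · exact (Set.disjoint_left.1 hdisj hyM) h
      · intro x hx hxne hxb
        rcases hx with rfl | hxM
        · by_contra hnot
          exact hp ⟨hxne, hxb, fun h => hnot (Set.mem_insert_of_mem _ h)⟩
        · exact Set.mem_insert_of_mem _ (hI x hxM hxne hxb)

/-- **Pairing criterion.** If `partner` is an involution of the cells such that every winning
set inside the board contains two distinct cells paired with each other, then Maker has no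
winning strategy from the empty position (Breaker answers each Maker move by its partner). -/
theorem not_makerWins_of_pairing {α : Type} (board : Set α) (W : Set α → Prop)
    (partner : α → α) (hinv : ∀ x, partner (partner x) = x)
    (hpair : ∀ S, W S → S ⊆ board → ∃ x ∈ S, partner x ≠ x ∧ partner x ∈ S) :
    ¬ MakerWins board W ∅ ∅ := fun h =>
  not_makerWins_of_pairing_aux board W partner hinv hpair ∅ ∅ h (Set.empty_subset _)
    (Set.disjoint_left.2 fun _ hx => absurd hx (Set.notMem_empty _))
    (fun _ hx => absurd hx (Set.notMem_empty _))

end Vale.Agent.H17.MakerBreaker
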