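import Mathlib

/-!
The hexomino Snaky and its allowed copies in the square grid `ℤ × ℤ` (problem P062).
-/

namespace Vale.Agent.H17.Snaky

/-- The cells of Snaky, `{(0,0),(1,0),(2,0),(3,0),(3,1),(4,1)}`. -/
def snakyCells : Set (ℤ × ℤ) := {(0, 0), (1, 0), (2, 0), (3, 0), (3, 1), (4, 1)}

/-- The action of a `2 × 2` signed permutation matrix on a cell: with signs `e1 e2 ∈ {1,-1}`,
`(x, y) ↦ (e1 x, e2 y)` if `s = false` and `(x, y) ↦ (e1 y, e2 x)` if `s = true`. -/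
def signedPerm (s : Bool) (e1 e2 : ℤ) (p : ℤ × ℤ) : ℤ × ℤ :=
  if s then (e1 * p.2, e2 * p.1) else (e1 * p.1, e2 * p.2)

/-- `A` is an allowed copy of Snaky: `A = t + R(S)` for a translation `t ∈ ℤ²` and one of the
eight signed permutation matrices `R`. -/
def IsSnakyCopy (A : Set (ℤ × ℤ)) : Prop :=
  ∃ (s : Bool) (e1 e2 : ℤ) (t : ℤ × ℤ), (e1 = 1 ∨ e1 = -1) ∧ (e2 = 1 ∨ e2 = -1) ∧
    A = (fun p => t + signedPerm s e1 e2 p) '' snakyCells

end Vale.Agent.H17.Snaky
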